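import Vale.Agent.P329.Final

open Vale.Agent.P329 in
theorem Vale.Agent.Results.P329.A_three.result :
    ∀ (α : Type) [Fintype α] (L : Language α), L.IsRegular →
      ∃ P : GRE α, P.lang = L ∧ P.sh ≤ 3 :=
  fun _ _ L hL => Vale.Agent.P329.main L hL
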